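import Vale.Agent.Lib.P043.Periodic

/-- Periodic tiling conjecture for tiles of prime cardinality, in every finitely generated
abelian group `G` (for instance `ℤ^d`, or `ℤ^d × G₀` with `G₀` finite): if a finite set `F` of
prime cardinality tiles `G` by translations, then `F` admits a periodic tiling, that is a
tiling whose translation set is invariant under a subgroup of finite index. -/
theorem Vale.Agent.Results.P043.PrimeTilePeriodic.result
    {G : Type*} [AddCommGroup G] [AddGroup.FG G] (F : Finset G) (hp : F.card.Prime)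
    (hF : ∃ A : Set G, ∀ g : G, ∃! q : G × G, q.1 ∈ A ∧ q.2 ∈ F ∧ q.1 + q.2 = g) :
    ∃ (A' : Set G) (L : AddSubgroup G), L.FiniteIndex ∧
      (∀ g : G, ∃! q : G × G, q.1 ∈ A' ∧ q.2 ∈ F ∧ q.1 + q.2 = g) ∧
      ∀ h ∈ L, ∀ a : G, a + h ∈ A' ↔ a ∈ A' := by
  obtain ⟨A, hA⟩ := hF
  exact Vale.Agent.Lib.P043.periodic_tiling_of_prime_card F hp A hA
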