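import Vale.Agent.Lib.P043.Frobenius

/-- Rigidity of (multi-)tilings by a tile of prime cardinality, in an arbitrary abelian group:
if every point `x` of `G` has exactly `k` representations `x = a + f` with `a ∈ A`, `f ∈ F`
(for `k = 1` this says `A ⊕ F = G`), and `F` has prime cardinality `p`, then `A` is mapped into
itself by the translations `p • (f - f')`, `f, f' ∈ F`. -/
theorem Vale.Agent.Results.P043.PrimeTileRigid.result
    {G : Type*} [AddCommGroup G] (F : Finset G) (A : Set G) (k : ℕ) (hp : F.card.Prime)
    (hk : ∀ x : G, {f : G | f ∈ F ∧ x - f ∈ A}.ncard = k) :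
    ∀ a ∈ A, ∀ f ∈ F, ∀ f' ∈ F, a + F.card • (f - f') ∈ A := by
  classical
  refine Vale.Agent.Lib.P043.invariant_of_prime_card F A k hp (fun x => ?_)
  rw [← hk x, ← Set.ncard_coe_finset]
  congr 1
  ext f
  simp
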